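import Mathlib

/-!
# S0453, work package D3b: (L3) for 3-row 0/1 tables from (L3) for the colouring model

`Tab r c` is the set of 3-row 0/1 tables (rows = subsets of the column type `C`) with row sums `r`
and column sums `c`.  A column of sum 1 is coloured by the row holding its `1`, a column of sum 2
by the row holding its `0`; columns of sum 0 or 3 are frozen.  This identifies `Tab r c` with the
states of the colouring model (`cstates`), and "row `i`" with the view of party `i` (`cview`).
-/

set_option linter.unusedSectionVars false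

namespace Crest.Agent.Helper97.SW

open Finset

section Colouring

variable (K1 K2 : Type*) [Fintype K1] [DecidableEq K1] [Fintype K2] [DecidableEq K2]

/-- States of the colouring model: pairs of colourings `K1 → Fin 3`, `K2 → Fin 3` with
`#(colour-i items of type 1) - #(colour-i items of type 2) = dl i`. -/
def cstates (dl : Fin 3 → ℤ) : Finset ((K1 → Fin 3) × (K2 → Fin 3)) :=
  Finset.univ.filter (fun s => ∀ i : Fin 3,
    ((Finset.univ.filter (fun a => s.1 a = i)).card : ℤ)
      - ((Finset.univ.filter (fun b => s.2 b = i)).card : ℤ) = dl i)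

variable {K1 K2}

/-- What party `i` sees: the type-1 items of colour `i` and the type-2 items of colour `i`. -/
def cview (i : Fin 3) (s : (K1 → Fin 3) × (K2 → Fin 3)) : Finset K1 × Finset K2 :=
  (Finset.univ.filter (fun a => s.1 a = i), Finset.univ.filter (fun b => s.2 b = i))

variable (K1 K2)

/-- The statement (L3) for the colouring model on item types `K1`, `K2` (mean-zero form). -/
def L3Colouring : Prop :=
  ∀ (dl : Fin 3 → ℤ) (g : Fin 3 → Finset K1 × Finset K2 → ℝ),
    (∀ i, ∑ s ∈ cstates K1 K2 dl, g i (cview i s) = 0) →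
    ∑ s ∈ cstates K1 K2 dl, (∑ i, g i (cview i s)) ^ 2
      ≤ 2 * ∑ s ∈ cstates K1 K2 dl, ∑ i, (g i (cview i s)) ^ 2

end Colouring

section Tables

variable {C : Type*} [Fintype C] [DecidableEq C]

/-- 3-row 0/1 tables with row sums `r` and column sums `c`; row `i` is the set `x i` of columns
holding a `1`. -/
def Tab (r : Fin 3 → ℕ) (c : C → ℕ) : Finset (Fin 3 → Finset C) :=
  Finset.univ.filter (fun x => (∀ i, (x i).card = r i) ∧
    ∀ w, (Finset.univ.filter (fun i => w ∈ x i)).card = c w)

theorem mem_Tab {r : Fin 3 → ℕ} {c : C → ℕ} {x : Fin 3 → Finset C} :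
    x ∈ Tab r c ↔ (∀ i, (x i).card = r i) ∧
      ∀ w, (Finset.univ.filter (fun i => w ∈ x i)).card = c w := by
  simp [Tab]

theorem colcount_eq (x : Fin 3 → Finset C) (w : C) :
    (Finset.univ.filter (fun i => w ∈ x i)).card =
      (if w ∈ x 0 then 1 else 0) + (if w ∈ x 1 then 1 else 0) + (if w ∈ x 2 then 1 else 0) := by
  rw [Finset.card_filter, Fin.sum_univ_three]

theorem colcount_le (x : Fin 3 → Finset C) (w : C) :
    (Finset.univ.filter (fun i => w ∈ x i)).card ≤ 3 := by
  rw [colcount_eq]
  split_ifs <;> omega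

variable (c : C → ℕ)

/-- colour of a column of sum 1: the row holding the `1`. -/
def enc1 (x : Fin 3 → Finset C) (w : {w // c w = 1}) : Fin 3 :=
  if (w : C) ∈ x 0 then 0 else if (w : C) ∈ x 1 then 1 else 2

/-- colour of a column of sum 2: the row holding the `0`. -/
def enc2 (x : Fin 3 → Finset C) (w : {w // c w = 2}) : Fin 3 :=
  if (w : C) ∉ x 0 then 0 else if (w : C) ∉ x 1 then 1 else 2

/-- the colouring of a table. -/
def enc (x : Fin 3 → Finset C) : ({w // c w = 1} → Fin 3) × ({w // c w = 2} → Fin 3) :=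
  (enc1 c x, enc2 c x)

/-- the row seen by a party with view `p`. -/
def decV (p : Finset {w // c w = 1} × Finset {w // c w = 2}) : Finset C :=
  Finset.univ.filter (fun w => c w = 3 ∨ (∃ h : c w = 1, (⟨w, h⟩ : {w // c w = 1}) ∈ p.1) ∨
    (∃ h : c w = 2, (⟨w, h⟩ : {w // c w = 2}) ∉ p.2))

/-- the table of a colouring. -/
def dec (s : ({w // c w = 1} → Fin 3) × ({w // c w = 2} → Fin 3)) (i : Fin 3) : Finset C :=
  decV c (cview i s)

theorem mem_dec {s : ({w // c w = 1} → Fin 3) × ({w // c w = 2} → Fin 3)} {i : Fin 3} {w : C} :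
    w ∈ dec c s i ↔ c w = 3 ∨ (∃ h : c w = 1, s.1 ⟨w, h⟩ = i) ∨ (∃ h : c w = 2, s.2 ⟨w, h⟩ ≠ i) := by
  simp [dec, decV, cview]

theorem mem_iff_enc1 {x : Fin 3 → Finset C} (w : {w // c w = 1})
    (hw : (Finset.univ.filter (fun i => (w : C) ∈ x i)).card = 1) (i : Fin 3) :
    (w : C) ∈ x i ↔ enc1 c x w = i := by
  rw [colcount_eq] at hw
  unfold enc1
  fin_cases i <;> by_cases h0 : (w : C) ∈ x 0 <;> by_cases h1 : (w : C) ∈ x 1 <;>
    by_cases h2 : (w : C) ∈ x 2 <;> simp_all

theorem not_mem_iff_enc2 {x : Fin 3 → Finset C} (w : {w // c w = 2})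
    (hw : (Finset.univ.filter (fun i => (w : C) ∈ x i)).card = 2) (i : Fin 3) :
    (w : C) ∉ x i ↔ enc2 c x w = i := by
  rw [colcount_eq] at hw
  unfold enc2
  fin_cases i <;> by_cases h0 : (w : C) ∈ x 0 <;> by_cases h1 : (w : C) ∈ x 1 <;>
    by_cases h2 : (w : C) ∈ x 2 <;> simp_all

/-- decoding the colouring of a table gives the table back. -/
theorem dec_enc {r : Fin 3 → ℕ} {x : Fin 3 → Finset C} (hx : x ∈ Tab r c) :
    dec c (enc c x) = x := by
  rw [mem_Tab] at hx
  funext i
  ext w
  rw [mem_dec]
  have hw := hx.2 w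
  have hle := colcount_le x w
  have hcases : c w = 0 ∨ c w = 1 ∨ c w = 2 ∨ c w = 3 := by omega
  rcases hcases with h | h | h | h
  · have h' := hw
    rw [colcount_eq, h] at h'
    have : w ∉ x i := by
      fin_cases i <;> by_cases h0 : w ∈ x 0 <;> by_cases h1 : w ∈ x 1 <;>
        by_cases h2 : w ∈ x 2 <;> simp_all
    simp [h, this]
  · have := mem_iff_enc1 c (x := x) ⟨w, h⟩ (by simpa [h] using hw) i
    simp only [h, enc] at this ⊢
    simp [this]
  · have := not_mem_iff_enc2 c (x := x) ⟨w, h⟩ (by simpa [h] using hw) i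
    simp only [h, enc] at this ⊢
    simp [← this]
  · have h' := hw
    rw [colcount_eq, h] at h'
    have : w ∈ x i := by
      fin_cases i <;> by_cases h0 : w ∈ x 0 <;> by_cases h1 : w ∈ x 1 <;>
        by_cases h2 : w ∈ x 2 <;> simp_all
    simp [h, this]

/-- encoding the table of a colouring gives the colouring back. -/
theorem enc_dec (s : ({w // c w = 1} → Fin 3) × ({w // c w = 2} → Fin 3)) :
    enc c (dec c s) = s := by
  apply Prod.ext
  · funext w
    have h1 : ∀ i, (w : C) ∈ dec c s i ↔ s.1 w = i := by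
      intro i
      rw [mem_dec]
      have := w.2
      simp [this]
    show enc1 c (dec c s) w = s.1 w
    unfold enc1
    simp only [h1]
    generalize s.1 w = j
    fin_cases j <;> simp
  · funext w
    have h1 : ∀ i, (w : C) ∉ dec c s i ↔ s.2 w = i := by
      intro i
      rw [mem_dec]
      have := w.2
      simp [this]
    show enc2 c (dec c s) w = s.2 w
    unfold enc2
    simp only [h1]
    generalize s.2 w = j
    fin_cases j <;> simp

theorem dec_eq_union (s : ({w // c w = 1} → Fin 3) × ({w // c w = 2} → Fin 3)) (i : Fin 3) :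
    dec c s i = (Finset.univ.filter (fun w => c w = 3)) ∪
      ((Finset.univ.filter (fun a : {w // c w = 1} => s.1 a = i)).map
        (Function.Embedding.subtype _)) ∪
      ((Finset.univ.filter (fun b : {w // c w = 2} => ¬ s.2 b = i)).map
        (Function.Embedding.subtype _)) := by
  ext w
  rw [mem_dec]
  simp only [mem_union, mem_filter, mem_univ, true_and, mem_map, Function.Embedding.coe_subtype,
    Subtype.exists, exists_and_right, exists_eq_right, or_assoc]

/-- size of a decoded row. -/
theorem card_dec (s : ({w // c w = 1} → Fin 3) × ({w // c w = 2} → Fin 3)) (i : Fin 3) :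
    (dec c s i).card + (Finset.univ.filter (fun b : {w // c w = 2} => s.2 b = i)).card =
      (Finset.univ.filter (fun w => c w = 3)).card +
        (Finset.univ.filter (fun a : {w // c w = 1} => s.1 a = i)).card +
        Fintype.card {w // c w = 2} := by
  rw [dec_eq_union, card_union_of_disjoint, card_union_of_disjoint, card_map, card_map]
  · have := card_filter_add_card_filter_not (s := (Finset.univ : Finset {w // c w = 2}))
      (fun b => s.2 b = i)
    rw [Finset.card_univ] at this
    omega
  · rw [Finset.disjoint_left]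
    intro w hw1 hw2
    simp only [mem_filter, mem_univ, true_and] at hw1
    simp only [mem_map, mem_filter, mem_univ, true_and, Function.Embedding.coe_subtype,
      Subtype.exists, exists_and_right, exists_eq_right] at hw2
    obtain ⟨h, -⟩ := hw2
    omega
  · rw [Finset.disjoint_left]
    intro w hw1 hw2
    simp only [mem_union, mem_filter, mem_univ, true_and, mem_map,
      Function.Embedding.coe_subtype, Subtype.exists, exists_and_right, exists_eq_right] at hw1
    simp only [mem_map, mem_filter, mem_univ, true_and, Function.Embedding.coe_subtype,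
      Subtype.exists, exists_and_right, exists_eq_right] at hw2
    obtain ⟨h, -⟩ := hw2
    rcases hw1 with h1 | ⟨h1, -⟩ <;> omega

/-- the `dl` of the colouring model attached to the margins `r`, `c`. -/
def dlOf (r : Fin 3 → ℕ) (i : Fin 3) : ℤ :=
  (r i : ℤ) - ((Finset.univ.filter (fun w => c w = 3)).card : ℤ) - (Fintype.card {w // c w = 2} : ℤ)

theorem enc_mem_cstates {r : Fin 3 → ℕ} {x : Fin 3 → Finset C} (hx : x ∈ Tab r c) :
    enc c x ∈ cstates {w // c w = 1} {w // c w = 2} (dlOf c r) := by
  have hde := dec_enc c hx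
  rw [mem_Tab] at hx
  simp only [cstates, mem_filter, mem_univ, true_and]
  intro i
  have h1 := card_dec c (enc c x) i
  rw [hde, hx.1 i] at h1
  unfold dlOf
  omega

theorem dec_mem_Tab {r : Fin 3 → ℕ} (hc : ∀ w, c w ≤ 3)
    {s : ({w // c w = 1} → Fin 3) × ({w // c w = 2} → Fin 3)}
    (hs : s ∈ cstates {w // c w = 1} {w // c w = 2} (dlOf c r)) :
    dec c s ∈ Tab r c := by
  simp only [cstates, mem_filter, mem_univ, true_and] at hs
  rw [mem_Tab]
  constructor
  · intro i
    have h1 := card_dec c s i
    have h2 := hs i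
    unfold dlOf at h2
    omega
  · intro w
    rw [colcount_eq]
    simp only [mem_dec]
    have hcases : c w = 0 ∨ c w = 1 ∨ c w = 2 ∨ c w = 3 := by have := hc w; omega
    have key1 : ∀ j : Fin 3, (((if j = 0 then 1 else 0) + if j = 1 then 1 else 0) +
        if j = 2 then 1 else 0) = 1 := by decide
    have key2 : ∀ j : Fin 3, (((if j = 0 then 0 else 1) + if j = 1 then 0 else 1) +
        if j = 2 then 0 else 1) = 2 := by decide
    rcases hcases with h | h | h | h
    · simp [h]
    · simp only [h]
      simpa using key1 _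
    · simp only [h]
      simpa using key2 _
    · simp [h]

theorem Tab_eq_empty {r : Fin 3 → ℕ} (hc : ¬ ∀ w, c w ≤ 3) : Tab r c = ∅ := by
  rw [Finset.eq_empty_iff_forall_notMem]
  intro x hx
  rw [mem_Tab] at hx
  apply hc
  intro w
  rw [← hx.2 w]
  exact colcount_le x w

/-- summation over tables = summation over colourings. -/
theorem sum_Tab_eq {r : Fin 3 → ℕ} (hc : ∀ w, c w ≤ 3) (F : (Fin 3 → Finset C) → ℝ) :
    ∑ x ∈ Tab r c, F x =
      ∑ s ∈ cstates {w // c w = 1} {w // c w = 2} (dlOf c r), F (dec c s) := by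
  refine Finset.sum_nbij' (enc c) (dec c) ?_ ?_ ?_ ?_ ?_
  · intro x hx
    exact enc_mem_cstates c hx
  · intro s hs
    exact dec_mem_Tab c hc hs
  · intro x hx
    exact dec_enc c hx
  · intro s _
    exact enc_dec c s
  · intro x hx
    rw [dec_enc c hx]

/-- **(L3) for 3-row 0/1 tables**, from (L3) for the colouring model on the columns of sum 1 and
the columns of sum 2. -/
theorem L3_tables_of_colouring (r : Fin 3 → ℕ) (c : C → ℕ)
    (hL3 : L3Colouring {w // c w = 1} {w // c w = 2})
    (g : Fin 3 → Finset C → ℝ) (h0 : ∀ i, ∑ x ∈ Tab r c, g i (x i) = 0) :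
    ∑ x ∈ Tab r c, (∑ i, g i (x i)) ^ 2 ≤ 2 * ∑ x ∈ Tab r c, ∑ i, (g i (x i)) ^ 2 := by
  by_cases hc : ∀ w, c w ≤ 3
  · rw [sum_Tab_eq c hc (fun x => (∑ i, g i (x i)) ^ 2),
      sum_Tab_eq c hc (fun x => ∑ i, (g i (x i)) ^ 2)]
    have h0' : ∀ i, ∑ s ∈ cstates {w // c w = 1} {w // c w = 2} (dlOf c r),
        (fun i p => g i (decV c p)) i (cview i s) = 0 := by
      intro i
      have := sum_Tab_eq (r := r) c hc (fun x => g i (x i))
      rw [h0 i] at this
      exact this.symm
    exact hL3 (dlOf c r) (fun i p => g i (decV c p)) h0'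
  · rw [Tab_eq_empty c hc]
    simp

end Tables

end Crest.Agent.Helper97.SW
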